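import Mathlib

/-!
P207, all dimensions (58's line N4): logarithms of elements of the stabiliser of a space `S` of
bilinear forms near the identity lie in the infinitesimal stabiliser `J S`.
-/

set_option linter.all false

open Filter Topology Set Metric NormedSpace
open scoped Nat

namespace Vale.Agent.P207.H61

section Algebra
variable {𝔸 : Type*} [NormedRing 𝔸] [NormedAlgebra ℝ 𝔸] [NormOneClass 𝔸] [CompleteSpace 𝔸]

theorem pow_lip {X Y : 𝔸} {r : ℝ} (hX : ‖X‖ ≤ r) (hY : ‖Y‖ ≤ r) (n : ℕ) :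
    ‖X ^ (n + 1) - Y ^ (n + 1)‖ ≤ (n + 1) * r ^ n * ‖X - Y‖ := by
  have hr : 0 ≤ r := (norm_nonneg X).trans hX
  induction n with
  | zero => simp
  | succ n ih =>
    have h1 : X ^ (n + 1 + 1) - Y ^ (n + 1 + 1) =
        X * (X ^ (n + 1) - Y ^ (n + 1)) + (X - Y) * Y ^ (n + 1) := by
      rw [pow_succ' X (n + 1), pow_succ' Y (n + 1)]; noncomm_ring
    have h2 : ‖Y ^ (n + 1)‖ ≤ r ^ (n + 1) :=
      (norm_pow_le Y _).trans (pow_le_pow_left₀ (norm_nonneg _) hY _)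
    calc ‖X ^ (n + 1 + 1) - Y ^ (n + 1 + 1)‖
        ≤ ‖X‖ * ‖X ^ (n + 1) - Y ^ (n + 1)‖ + ‖X - Y‖ * ‖Y ^ (n + 1)‖ := by
          rw [h1]
          exact (norm_add_le _ _).trans (add_le_add (norm_mul_le _ _) (norm_mul_le _ _))
      _ ≤ r * ((n + 1) * r ^ n * ‖X - Y‖) + ‖X - Y‖ * r ^ (n + 1) := by
          gcongr
      _ = ((n + 1 : ℕ) + 1 : ℝ) * r ^ (n + 1) * ‖X - Y‖ := by
          push_cast; ring

/-- `exp` is the identity up to a small Lipschitz error -/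
theorem exp_lip {X Y : 𝔸} {r : ℝ} (hX : ‖X‖ ≤ r) (hY : ‖Y‖ ≤ r) (hr1 : r < 1) :
    ‖exp X - exp Y - (X - Y)‖ ≤ r / (1 - r) * ‖X - Y‖ := by
  have hr : 0 ≤ r := (norm_nonneg X).trans hX
  have h1 := exp_series_hasSum_exp' (𝕂 := ℝ) X
  have h2 := exp_series_hasSum_exp' (𝕂 := ℝ) Y
  have h3 := h1.sub h2
  have h4 : HasSum (fun n : ℕ => ((n + 2)! : ℝ)⁻¹ • X ^ (n + 2) - ((n + 2)! : ℝ)⁻¹ • Y ^ (n + 2))
      (exp X - exp Y - (X - Y)) := by
    rw [hasSum_nat_add_iff (f := fun n : ℕ => (n ! : ℝ)⁻¹ • X ^ n - (n ! : ℝ)⁻¹ • Y ^ n) 2]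
    simpa [Finset.sum_range_succ] using h3
  have h5 : HasSum (fun n : ℕ => r ^ (n + 1) * ‖X - Y‖) (r / (1 - r) * ‖X - Y‖) := by
    have := ((hasSum_geometric_of_lt_one hr hr1).mul_left r).mul_right ‖X - Y‖
    simpa [pow_succ', div_eq_mul_inv] using this
  refine h4.norm_le_of_bounded h5 fun n => ?_
  rw [← smul_sub, norm_smul, norm_inv, Real.norm_of_nonneg (by positivity)]
  have h6 := pow_lip hX hY (n + 1)
  have h7 : (0 : ℝ) < ((n + 2)! : ℝ) := by positivity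
  rw [inv_mul_le_iff₀ h7]
  have h8 : ((n : ℝ) + 1 + 1) ≤ ((n + 2)! : ℝ) := by
    have : n + 2 ≤ (n + 2)! := Nat.self_le_factorial _
    have h9 : ((n + 2 : ℕ) : ℝ) ≤ ((n + 2)! : ℝ) := by exact_mod_cast this
    push_cast at h9; linarith
  have h10 : 0 ≤ r ^ (n + 1) * ‖X - Y‖ := by positivity
  calc ‖X ^ (n + 2) - Y ^ (n + 2)‖ ≤ ((n + 1 : ℕ) + 1) * r ^ (n + 1) * ‖X - Y‖ := h6
    _ = ((n : ℝ) + 1 + 1) * (r ^ (n + 1) * ‖X - Y‖) := by push_cast; ring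
    _ ≤ ((n + 2)! : ℝ) * (r ^ (n + 1) * ‖X - Y‖) := mul_le_mul_of_nonneg_right h8 h10

end Algebra

section Pres
variable {V : Type*} [NormedAddCommGroup V] [NormedSpace ℝ V] [CompleteSpace V]

/-- the operators that preserve a closed subspace form a closed set stable under `exp` -/
theorem exp_mem_pres {S : Submodule ℝ V} (hS : IsClosed (S : Set V)) {Y : V →L[ℝ] V}
    (h : ∀ s ∈ S, Y s ∈ S) : ∀ s ∈ S, (exp Y) s ∈ S := by
  intro s hs
  have h1 := (exp_series_hasSum_exp' (𝕂 := ℝ) Y).mapL (ContinuousLinearMap.apply ℝ V s)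
  have h2 : ∀ n : ℕ, (Y ^ n) s ∈ S := by
    intro n
    induction n with
    | zero => simpa using hs
    | succ n ih => rw [pow_succ']; exact h _ ih
  refine hS.mem_of_tendsto h1 (Eventually.of_forall fun t => ?_)
  refine S.sum_mem fun n _ => ?_
  simp only [ContinuousLinearMap.apply_apply, ContinuousLinearMap.smul_apply]
  exact S.smul_mem _ (h2 n)

theorem exp_pres [Nontrivial V] {S : Submodule ℝ V} (hS : IsClosed (S : Set V)) {Y : V →L[ℝ] V}
    (hY : ‖Y‖ ≤ 1 / 8) (h : ∀ s ∈ S, (exp Y) s ∈ S) : ∀ s ∈ S, Y s ∈ S := by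
  set A : ℕ → (V →L[ℝ] V) := fun k => Nat.rec 0 (fun _ Z => exp Y - exp Z + Z) k with hA
  have hA0 : A 0 = 0 := rfl
  have hA1 : ∀ k, A (k + 1) = exp Y - exp (A k) + A k := fun k => rfl
  have hb : ∀ k, ‖Y - A k‖ ≤ (1 / 3) ^ k * (1 / 8) := by
    intro k
    induction k with
    | zero => rw [hA0]; simpa using hY
    | succ k ih =>
      have h1 : ‖A k‖ ≤ 1 / 4 := by
        have h2 : ‖A k‖ ≤ ‖Y‖ + ‖Y - A k‖ := by
          have := norm_sub_le Y (Y - A k)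
          simpa using this
        have h3 : (1 / 3 : ℝ) ^ k ≤ 1 := pow_le_one₀ (by norm_num) (by norm_num)
        linarith
      have h4 := exp_lip (X := Y) (Y := A k) (r := 1 / 4) (by linarith) h1 (by norm_num)
      have h5 : Y - A (k + 1) = -(exp Y - exp (A k) - (Y - A k)) := by
        rw [hA1]; abel
      rw [h5, norm_neg]
      calc _ ≤ (1 / 4 : ℝ) / (1 - 1 / 4) * ‖Y - A k‖ := h4
        _ ≤ (1 / 4 : ℝ) / (1 - 1 / 4) * ((1 / 3) ^ k * (1 / 8)) := by gcongr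
        _ = (1 / 3) ^ (k + 1) * (1 / 8) := by rw [pow_succ]; ring
  have hpres : ∀ k, ∀ s ∈ S, A k s ∈ S := by
    intro k
    induction k with
    | zero => intro s hs; rw [hA0]; simp
    | succ k ih =>
      intro s hs
      rw [hA1]
      exact S.add_mem (S.sub_mem (h s hs) (exp_mem_pres hS ih s hs)) (ih s hs)
  have hlim : Tendsto A atTop (𝓝 Y) := by
    rw [tendsto_iff_norm_sub_tendsto_zero]
    have h1 : Tendsto (fun k : ℕ => (1 / 3 : ℝ) ^ k * (1 / 8)) atTop (𝓝 0) := by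
      have := (tendsto_pow_atTop_nhds_zero_of_lt_one (r := (1 / 3 : ℝ)) (by norm_num)
        (by norm_num)).mul_const (1 / 8 : ℝ)
      simpa using this
    refine squeeze_zero (fun k => norm_nonneg _) (fun k => ?_) h1
    rw [norm_sub_rev]; exact hb k
  intro s hs
  have h2 : Tendsto (fun k => A k s) atTop (𝓝 (Y s)) :=
    ((ContinuousLinearMap.apply ℝ V s).continuous.tendsto Y).comp hlim
  exact hS.mem_of_tendsto h2 (Eventually.of_forall fun k => hpres k s hs)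

end Pres

section Forms
variable {E : Type*} [NormedAddCommGroup E] [NormedSpace ℝ E]

/-- bilinear forms, as a normed space of their own -/
def BF (E : Type*) [NormedAddCommGroup E] [NormedSpace ℝ E] : Type _ := E →L[ℝ] E →L[ℝ] ℝ

noncomputable instance : NormedAddCommGroup (BF E) :=
  inferInstanceAs (NormedAddCommGroup (E →L[ℝ] E →L[ℝ] ℝ))
noncomputable instance : NormedSpace ℝ (BF E) :=
  inferInstanceAs (NormedSpace ℝ (E →L[ℝ] E →L[ℝ] ℝ))
instance [FiniteDimensional ℝ E] : FiniteDimensional ℝ (BF E) :=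
  inferInstanceAs (FiniteDimensional ℝ (E →L[ℝ] E →L[ℝ] ℝ))
instance : CompleteSpace (BF E) :=
  inferInstanceAs (CompleteSpace (E →L[ℝ] E →L[ℝ] ℝ))

/-- the value of a form -/
def ev (s : BF E) : E →L[ℝ] E →L[ℝ] ℝ := s
/-- a form from its values -/
def mkf (s : E →L[ℝ] E →L[ℝ] ℝ) : BF E := s

theorem bf_ext {s t : BF E} (h : ∀ u w, ev s u w = ev t u w) : s = t :=
  ContinuousLinearMap.ext fun u => ContinuousLinearMap.ext fun w => h u w

theorem bf_bound (s : BF E) (u w : E) : ‖ev s u w‖ ≤ ‖s‖ * ‖u‖ * ‖w‖ :=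
  ContinuousLinearMap.le_opNorm₂ (ev s) u w

theorem bf_norm_le {s : BF E} {M : ℝ} (hM : 0 ≤ M) (h : ∀ u w, ‖ev s u w‖ ≤ M * ‖u‖ * ‖w‖) :
    ‖s‖ ≤ M :=
  ContinuousLinearMap.opNorm_le_bound₂ (ev s) hM h

@[simp] theorem ev_add (s t : BF E) (u w : E) : ev (s + t) u w = ev s u w + ev t u w := rfl
@[simp] theorem ev_smul (c : ℝ) (s : BF E) (u w : E) : ev (c • s) u w = c * ev s u w := rfl
@[simp] theorem ev_zero (u w : E) : ev (0 : BF E) u w = 0 := rfl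

/-- evaluation as a continuous linear map -/
noncomputable def evL (u w : E) : BF E →L[ℝ] ℝ :=
  LinearMap.mkContinuous
    { toFun := fun s => ev s u w
      map_add' := fun s t => rfl
      map_smul' := fun c s => rfl } (‖u‖ * ‖w‖)
    (fun s => by
      have := bf_bound s u w
      change ‖ev s u w‖ ≤ _
      calc ‖ev s u w‖ ≤ ‖s‖ * ‖u‖ * ‖w‖ := this
        _ = ‖u‖ * ‖w‖ * ‖s‖ := by ring)

@[simp] theorem evL_apply (u w : E) (s : BF E) : evL u w s = ev s u w := rfl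

/-- `s ↦ s (X ·, Z ·)` as a form -/
noncomputable def comp2 (X Z : E →L[ℝ] E) (s : BF E) : BF E :=
  mkf ((ev s).bilinearComp X Z)

@[simp] theorem ev_comp2 (X Z : E →L[ℝ] E) (s : BF E) (u w : E) :
    ev (comp2 X Z s) u w = ev s (X u) (Z w) := rfl

theorem norm_comp2 (X Z : E →L[ℝ] E) (s : BF E) : ‖comp2 X Z s‖ ≤ ‖X‖ * ‖Z‖ * ‖s‖ := by
  refine bf_norm_le (by positivity) fun u w => ?_
  calc ‖ev s (X u) (Z w)‖ ≤ ‖s‖ * ‖X u‖ * ‖Z w‖ := bf_bound _ _ _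
    _ ≤ ‖s‖ * (‖X‖ * ‖u‖) * (‖Z‖ * ‖w‖) := by
      gcongr
      · exact X.le_opNorm u
      · exact Z.le_opNorm w
    _ = ‖X‖ * ‖Z‖ * ‖s‖ * ‖u‖ * ‖w‖ := by ring

/-- the same as a continuous linear map of forms -/
noncomputable def comp2L (X Z : E →L[ℝ] E) : BF E →L[ℝ] BF E :=
  LinearMap.mkContinuous
    { toFun := comp2 X Z
      map_add' := fun s t => bf_ext fun u w => rfl
      map_smul' := fun c s => bf_ext fun u w => rfl } (‖X‖ * ‖Z‖)
    (fun s => norm_comp2 X Z s)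

@[simp] theorem comp2L_apply (X Z : E →L[ℝ] E) (s : BF E) : comp2L X Z s = comp2 X Z s := rfl

theorem norm_comp2L (X Z : E →L[ℝ] E) : ‖comp2L X Z‖ ≤ ‖X‖ * ‖Z‖ :=
  LinearMap.mkContinuous_norm_le _ (by positivity) _

noncomputable def lft (X : E →L[ℝ] E) : BF E →L[ℝ] BF E := comp2L X 1
noncomputable def rgt (X : E →L[ℝ] E) : BF E →L[ℝ] BF E := comp2L 1 X

theorem norm_one_le : ‖(1 : E →L[ℝ] E)‖ ≤ 1 := ContinuousLinearMap.norm_id_le

theorem norm_lft_le (X : E →L[ℝ] E) : ‖lft X‖ ≤ ‖X‖ := by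
  have h1 := norm_comp2L X 1
  have h2 := norm_one_le (E := E)
  rw [lft]; nlinarith [norm_nonneg X]

theorem norm_rgt_le (X : E →L[ℝ] E) : ‖rgt X‖ ≤ ‖X‖ := by
  have h1 := norm_comp2L 1 X
  have h2 := norm_one_le (E := E)
  rw [rgt]; nlinarith [norm_nonneg X]

/-- infinitesimal pull back -/
noncomputable def dl (X : E →L[ℝ] E) : BF E →L[ℝ] BF E := lft X + rgt X

theorem ev_dl (X : E →L[ℝ] E) (s : BF E) (u w : E) :
    ev (dl X s) u w = ev s (X u) w + ev s u (X w) := rfl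

theorem norm_dl_le (X : E →L[ℝ] E) : ‖dl X‖ ≤ 2 * ‖X‖ := by
  have := (norm_add_le (lft X) (rgt X)).trans (add_le_add (norm_lft_le X) (norm_rgt_le X))
  rw [dl]; linarith

theorem hasSum_ev {f : ℕ → (BF E →L[ℝ] BF E)} {T : BF E →L[ℝ] BF E} (h : HasSum f T) (s : BF E)
    (u w : E) : HasSum (fun n => ev (f n s) u w) (ev (T s) u w) :=
  (h.mapL (ContinuousLinearMap.apply ℝ (BF E) s)).mapL (evL u w)

variable [CompleteSpace E]

theorem exp_lft (X : E →L[ℝ] E) : exp (lft X) = lft (exp X) := by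
  refine ContinuousLinearMap.ext fun s => bf_ext fun u w => ?_
  have h2 := hasSum_ev (exp_series_hasSum_exp' (𝕂 := ℝ) (lft X)) s u w
  have h3 := ((exp_series_hasSum_exp' (𝕂 := ℝ) X).mapL (ContinuousLinearMap.apply ℝ E u)).mapL
    ((ev s).flip w)
  have h4 : ∀ (n : ℕ) (s : BF E) (u : E), ev (((lft X) ^ n) s) u w = ev s ((X ^ n) u) w := by
    intro n
    induction n with
    | zero => intro s u; rfl
    | succ n ih =>
      intro s u
      rw [pow_succ, ContinuousLinearMap.mul_apply, ih, pow_succ', ContinuousLinearMap.mul_apply]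
      rfl
  have h5 : (fun n : ℕ => ev (((n ! : ℝ)⁻¹ • (lft X) ^ n) s) u w) = fun n : ℕ =>
      (ev s).flip w ((ContinuousLinearMap.apply ℝ E u) ((n ! : ℝ)⁻¹ • X ^ n)) := by
    funext n
    change (n ! : ℝ)⁻¹ * ev (((lft X) ^ n) s) u w = ev s (((n ! : ℝ)⁻¹ • X ^ n) u) w
    rw [h4 n]
    simp
  rw [h5] at h2
  exact h2.unique h3

theorem exp_rgt (X : E →L[ℝ] E) : exp (rgt X) = rgt (exp X) := by
  refine ContinuousLinearMap.ext fun s => bf_ext fun u w => ?_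
  have h2 := hasSum_ev (exp_series_hasSum_exp' (𝕂 := ℝ) (rgt X)) s u w
  have h3 := ((exp_series_hasSum_exp' (𝕂 := ℝ) X).mapL (ContinuousLinearMap.apply ℝ E w)).mapL
    (ev s u)
  have h4 : ∀ (n : ℕ) (s : BF E) (w : E), ev (((rgt X) ^ n) s) u w = ev s u ((X ^ n) w) := by
    intro n
    induction n with
    | zero => intro s u; rfl
    | succ n ih =>
      intro s w
      rw [pow_succ, ContinuousLinearMap.mul_apply, ih, pow_succ', ContinuousLinearMap.mul_apply]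
      rfl
  have h5 : (fun n : ℕ => ev (((n ! : ℝ)⁻¹ • (rgt X) ^ n) s) u w) = fun n : ℕ =>
      (ev s u) ((ContinuousLinearMap.apply ℝ E w) ((n ! : ℝ)⁻¹ • X ^ n)) := by
    funext n
    change (n ! : ℝ)⁻¹ * ev (((rgt X) ^ n) s) u w = ev s u (((n ! : ℝ)⁻¹ • X ^ n) w)
    rw [h4 n]
    simp
  rw [h5] at h2
  exact h2.unique h3

/-- the exponential of the infinitesimal action -/
theorem exp_dl (X : E →L[ℝ] E) (s : BF E) (u w : E) :
    ev ((exp (dl X)) s) u w = ev s ((exp X) u) ((exp X) w) := by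
  have hc : Commute (lft X) (rgt X) := by
    refine ContinuousLinearMap.ext fun s => bf_ext fun u w => rfl
  letI : NormedAlgebra ℚ (BF E →L[ℝ] BF E) :=
    NormedAlgebra.restrictScalars ℚ ℝ (BF E →L[ℝ] BF E)
  rw [dl, exp_add_of_commute hc, exp_lft, exp_rgt]
  rfl

end Forms

section Stab
variable {E : Type*} [NormedAddCommGroup E] [NormedSpace ℝ E]

/-- `g` maps the space of forms `S` into `S` (pull back) -/
def Stab (S : Submodule ℝ (E →L[ℝ] E →L[ℝ] ℝ)) (g : E →L[ℝ] E) : Prop :=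
  ∀ s ∈ S, ∃ t ∈ S, ∀ u w, t u w = s (g u) (g w)

/-- the infinitesimal stabiliser of a space of forms -/
def J (S : Submodule ℝ (E →L[ℝ] E →L[ℝ] ℝ)) : Submodule ℝ (E →L[ℝ] E) where
  carrier := {X | ∀ s ∈ S, ∃ t ∈ S, ∀ u w, t u w = s (X u) w + s u (X w)}
  add_mem' := by
    intro X Y hX hY s hs
    obtain ⟨t1, h1, h2⟩ := hX s hs
    obtain ⟨t2, h3, h4⟩ := hY s hs
    refine ⟨t1 + t2, S.add_mem h1 h3, fun u w => ?_⟩
    simp only [ContinuousLinearMap.add_apply, map_add, h2, h4]; ring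
  zero_mem' := by
    intro s hs
    exact ⟨0, S.zero_mem, fun u w => by simp⟩
  smul_mem' := by
    intro c X hX s hs
    obtain ⟨t1, h1, h2⟩ := hX s hs
    refine ⟨c • t1, S.smul_mem c h1, fun u w => ?_⟩
    simp only [ContinuousLinearMap.smul_apply, map_smul, h2, smul_eq_mul]; ring

theorem mem_J {S : Submodule ℝ (E →L[ℝ] E →L[ℝ] ℝ)} {X : E →L[ℝ] E} :
    X ∈ J S ↔ ∀ s ∈ S, ∃ t ∈ S, ∀ u w, t u w = s (X u) w + s u (X w) := Iff.rfl

/-- the space of forms in `BF E` -/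
def SB (S : Submodule ℝ (E →L[ℝ] E →L[ℝ] ℝ)) : Submodule ℝ (BF E) where
  carrier := {s | ev s ∈ S}
  add_mem' := fun {s t} hs ht => S.add_mem hs ht
  zero_mem' := S.zero_mem
  smul_mem' := fun c {s} hs => S.smul_mem c hs

theorem mem_SB {S : Submodule ℝ (E →L[ℝ] E →L[ℝ] ℝ)} {s : BF E} : s ∈ SB S ↔ ev s ∈ S := Iff.rfl

theorem mem_J_iff {S : Submodule ℝ (E →L[ℝ] E →L[ℝ] ℝ)} {X : E →L[ℝ] E} :
    X ∈ J S ↔ ∀ s ∈ SB S, dl X s ∈ SB S := by
  constructor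
  · intro h s hs
    obtain ⟨t, h1, h2⟩ := h (ev s) hs
    have : dl X s = mkf t := bf_ext fun u w => (h2 u w).symm
    rw [this]; exact h1
  · intro h s hs
    exact ⟨ev (dl X (mkf s)), h _ hs, fun u w => rfl⟩

variable [FiniteDimensional ℝ E]

theorem complete_E : CompleteSpace E := FiniteDimensional.complete ℝ E

/-- small elements: if `exp X` stabilises `S` then `X ∈ J S` -/
theorem mem_J_of_exp [Nontrivial E] {S : Submodule ℝ (E →L[ℝ] E →L[ℝ] ℝ)} {X : E →L[ℝ] E}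
    (hX : ‖X‖ ≤ 1 / 16) (h : Stab S (exp X)) : X ∈ J S := by
  haveI : CompleteSpace E := complete_E
  rw [mem_J_iff]
  haveI : Nontrivial (BF E) := by
    obtain ⟨x, hx⟩ := exists_ne (0 : E)
    obtain ⟨f, -, hf⟩ := exists_dual_vector ℝ x (norm_ne_zero_iff.2 hx)
    refine ⟨⟨mkf (f.smulRight f), 0, fun h0 => ?_⟩⟩
    have h1 := congrArg (fun s : BF E => ev s x x) h0
    have h2 : f x * f x = 0 := h1
    rw [hf] at h2
    have : ‖x‖ ≠ 0 := norm_ne_zero_iff.2 hx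
    simp at h2
    exact hx h2
  refine exp_pres (V := BF E) (Submodule.closed_of_finiteDimensional (SB S)) (Y := dl X) ?_ ?_
  · have := norm_dl_le X
    linarith
  · intro s hs
    obtain ⟨t, h1, h2⟩ := h (ev s) hs
    have : (exp (dl X)) s = mkf t := bf_ext fun u w => by rw [exp_dl]; exact (h2 u w).symm
    rw [this]; exact h1

theorem stab_exp {S : Submodule ℝ (E →L[ℝ] E →L[ℝ] ℝ)} {X : E →L[ℝ] E} (h : X ∈ J S) :
    Stab S (exp X) := by
  haveI : CompleteSpace E := complete_E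
  intro s hs
  rw [mem_J_iff] at h
  refine ⟨ev ((exp (dl X)) (mkf s)),
    exp_mem_pres (Submodule.closed_of_finiteDimensional (SB S)) h (mkf s) hs, fun u w => ?_⟩
  exact exp_dl X (mkf s) u w

/-- **LOG** -/
theorem log_stab (E : Type*) [NormedAddCommGroup E] [NormedSpace ℝ E] [FiniteDimensional ℝ E]
    [Nontrivial E] : ∃ ε > 0, ∀ g : E →L[ℝ] E, ‖g - 1‖ < ε →
    ∃ X : E →L[ℝ] E, exp X = g ∧ ‖X‖ ≤ 1 / 16 ∧ ‖X‖ ≤ 2 * ‖g - 1‖ ∧
      ‖g - 1 - X‖ ≤ 5 * ‖g - 1‖ ^ 2 ∧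
      ∀ S : Submodule ℝ (E →L[ℝ] E →L[ℝ] ℝ), Stab S g → X ∈ J S := by
  haveI : CompleteSpace E := FiniteDimensional.complete ℝ E
  have h1 : HasStrictFDerivAt (exp : (E →L[ℝ] E) → (E →L[ℝ] E))
      (1 : (E →L[ℝ] E) →L[ℝ] (E →L[ℝ] E)) 0 := hasStrictFDerivAt_exp_zero
  have h2 := h1.map_nhds_eq_of_surj (LinearMap.range_eq_top.2 fun y => ⟨y, rfl⟩)
  rw [exp_zero] at h2
  have h3 : exp '' (closedBall (0 : E →L[ℝ] E) (1 / 16)) ∈ 𝓝 (1 : E →L[ℝ] E) := by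
    rw [← h2]
    exact image_mem_map (closedBall_mem_nhds _ (by norm_num))
  obtain ⟨ε, hε, hb⟩ := Metric.mem_nhds_iff.1 h3
  refine ⟨ε, hε, fun g hg => ?_⟩
  obtain ⟨X, hX, rfl⟩ := hb (by rw [mem_ball, dist_eq_norm]; exact hg)
  rw [mem_closedBall_zero_iff] at hX
  have h4 := exp_lip (X := X) (Y := 0) (r := ‖X‖) le_rfl (by simp) (by linarith)
  rw [exp_zero, sub_zero] at h4
  have h5 : ‖X‖ / (1 - ‖X‖) ≤ 16 / 15 * ‖X‖ := by
    rw [div_le_iff₀ (by linarith)]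
    nlinarith [norm_nonneg X]
  have h6 : ‖exp X - 1 - X‖ ≤ 16 / 15 * ‖X‖ ^ 2 := by
    refine h4.trans ?_
    nlinarith [norm_nonneg X, mul_le_mul_of_nonneg_right h5 (norm_nonneg X)]
  have h7 : ‖X‖ ≤ 2 * ‖exp X - 1‖ := by
    have h8 : ‖X‖ ≤ ‖exp X - 1‖ + ‖exp X - 1 - X‖ := by
      have := norm_sub_le (exp X - 1) (exp X - 1 - X)
      simpa using this
    nlinarith [norm_nonneg X, norm_nonneg (exp X - 1)]
  refine ⟨X, rfl, hX, h7, ?_, fun S hS => mem_J_of_exp hX hS⟩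
  have h9 : ‖X‖ ^ 2 ≤ (2 * ‖exp X - 1‖) ^ 2 := pow_le_pow_left₀ (norm_nonneg _) h7 2
  nlinarith [norm_nonneg (exp X - 1)]

end Stab
end Vale.Agent.P207.H61
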