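import Vale.Agent.P207.H61.Punct
import Vale.Agent.P207.H61.Log

/-!
P207, all dimensions (58's line N4), end of step 4: the infinitesimal stabiliser of the holonomy
invariant space of forms acts irreducibly.
-/

set_option linter.all false

open Filter Topology Set Metric NormedSpace

namespace Vale.Agent.P207.H61

variable {E E' : Type*} [NormedAddCommGroup E] [NormedSpace ℝ E] [FiniteDimensional ℝ E]
  [NormedAddCommGroup E'] [NormedSpace ℝ E'] [FiniteDimensional ℝ E']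

/-- a subspace invariant under `J S` is invariant under elements of the stabiliser near `1` -/
theorem map_eq_of_stab [Nontrivial E] : ∃ ε > 0, ∀ g : E →L[ℝ] E, ‖g - 1‖ < ε →
    ∀ S : Submodule ℝ (E →L[ℝ] E →L[ℝ] ℝ), Stab S g → ∀ F : Submodule ℝ E,
    (∀ X ∈ J S, ∀ u ∈ F, X u ∈ F) → Function.Injective g →
    F.map (g : E →ₗ[ℝ] E) = F := by
  haveI : CompleteSpace E := FiniteDimensional.complete ℝ E
  obtain ⟨ε, hε, h⟩ := log_stab E
  refine ⟨ε, hε, fun g hg S hS F hF hi => ?_⟩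
  obtain ⟨X, rfl, -, -, -, hX⟩ := h g hg
  have h1 : ∀ u ∈ F, (exp X) u ∈ F :=
    exp_mem_pres (Submodule.closed_of_finiteDimensional F) (hF X (hX S hS))
  have h2 : F.map ((exp X : E →L[ℝ] E) : E →ₗ[ℝ] E) ≤ F := by
    rintro _ ⟨u, hu, rfl⟩
    exact h1 u hu
  refine Submodule.eq_of_le_of_finrank_le h2 ?_
  exact (LinearEquiv.finrank_eq
    (Submodule.equivMapOfInjective ((exp X : E →L[ℝ] E) : E →ₗ[ℝ] E) hi F)).le

/-- **IRR** -/
theorem irr (hdim : 1 < Module.rank ℝ E) {h : E → E'} {D : E → E →L[ℝ] E'} {p' : E} {p : E'}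
    (hd : ∀ x ≠ p', HasFDerivAt h (D x) x) (hc : ContinuousOn D {p'}ᶜ)
    (hb : ∀ x ≠ p', Function.Bijective (D x)) (hp : ∀ x ≠ p', h x ≠ p)
    (hinf : Tendsto h (cocompact E) (𝓝 p)) {S : Submodule ℝ (E →L[ℝ] E →L[ℝ] ℝ)}
    {S' : Submodule ℝ (E' →L[ℝ] E' →L[ℝ] ℝ)}
    (hS1 : ∀ x ≠ p', ∀ s' ∈ S', ∃ s ∈ S, ∀ u w, s u w = s' (D x u) (D x w))
    (hS2 : ∀ x ≠ p', ∀ s ∈ S, ∃ s' ∈ S', ∀ u w, s u w = s' (D x u) (D x w))
    {F : Submodule ℝ E} (hF : ∀ X ∈ J S, ∀ u ∈ F, X u ∈ F) : F = ⊥ ∨ F = ⊤ := by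
  by_contra hn
  push Not at hn
  obtain ⟨hF0, hF1⟩ := hn
  haveI : Nontrivial E := rank_pos_iff_nontrivial.1 (zero_lt_one.trans hdim)
  obtain ⟨ε, hε, hst⟩ := map_eq_of_stab (E := E)
  have hloc : ∀ x₁ ≠ p', ∀ᶠ x in 𝓝 x₁,
      F.map (D x : E →ₗ[ℝ] E') = F.map (D x₁ : E →ₗ[ℝ] E') := by
    intro x₁ hx₁
    set e : E ≃L[ℝ] E' :=
      (LinearEquiv.ofBijective (D x₁ : E →ₗ[ℝ] E') (hb x₁ hx₁)).toContinuousLinearEquiv with he
    have he1 : ∀ u, e u = D x₁ u := fun u => rfl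
    set g : E → (E →L[ℝ] E) := fun x => (e.symm : E' →L[ℝ] E).comp (D x) with hg
    have hg1 : g x₁ = 1 := by
      ext u
      change e.symm (D x₁ u) = u
      rw [← he1, e.symm_apply_apply]
    have hgc : ContinuousAt g x₁ :=
      continuousAt_const.clm_comp (hc.continuousAt (isOpen_compl_singleton.mem_nhds hx₁))
    have h1 : ∀ᶠ x in 𝓝 x₁, ‖g x - 1‖ < ε := by
      have := Metric.continuousAt_iff'.1 hgc ε hε
      filter_upwards [this] with x hx
      rwa [hg1, dist_eq_norm] at hx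
    filter_upwards [h1, isOpen_compl_singleton.mem_nhds hx₁] with x hx1 hx2
    have hx2' : x ≠ p' := hx2
    have hDx : ∀ u, D x₁ (g x u) = D x u := fun u => by
      change D x₁ (e.symm (D x u)) = D x u
      rw [← he1, e.apply_symm_apply]
    have hstab : Stab S (g x) := by
      intro s hs
      obtain ⟨s', hs', h3⟩ := hS2 x₁ hx₁ s hs
      obtain ⟨t, ht, h4⟩ := hS1 x hx2' s' hs'
      refine ⟨t, ht, fun u w => ?_⟩
      rw [h4, h3, hDx, hDx]
    have hinj : Function.Injective (g x) := e.symm.injective.comp (hb x hx2').1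
    have h5 := hst (g x) hx1 S hstab F hF hinj
    have h6 : (D x : E →ₗ[ℝ] E') = (D x₁ : E →ₗ[ℝ] E').comp (g x : E →ₗ[ℝ] E) := by
      ext u
      exact (hDx u).symm
    rw [h6, Submodule.map_comp, h5]
  have hconn : IsPreconnected ({p'}ᶜ : Set E) :=
    (isConnected_compl_singleton_of_one_lt_rank hdim p').isPreconnected
  obtain ⟨x₀, hx₀⟩ := exists_ne p'
  have hconst : ∀ x ≠ p', F.map (D x : E →ₗ[ℝ] E') = F.map (D x₀ : E →ₗ[ℝ] E') := by
    letI : TopologicalSpace (Submodule ℝ E') := ⊥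
    haveI : DiscreteTopology (Submodule ℝ E') := ⟨rfl⟩
    have hcont : ContinuousOn (fun x => F.map (D x : E →ₗ[ℝ] E')) ({p'}ᶜ : Set E) := by
      intro x hx
      have h7 := hloc x hx
      exact (continuousAt_const.congr (h7.mono fun y hy => hy.symm)).continuousWithinAt
    intro x hx
    exact hconn.constant hcont hx hx₀
  refine punct hF1 ?_ hd hc hconst hp hinf
  intro h0
  apply hF0
  rw [Submodule.eq_bot_iff]
  intro u hu
  have h8 : (D x₀ : E →ₗ[ℝ] E') u ∈ F.map (D x₀ : E →ₗ[ℝ] E') := Submodule.mem_map_of_mem hu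
  rw [h0, Submodule.mem_bot] at h8
  exact (hb x₀ hx₀).1 (h8.trans (map_zero (D x₀)).symm)

end Vale.Agent.P207.H61
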