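import Mathlib

/-!
P207, all dimensions: step 4 of helper58's proof (puncture lemma), its infinitesimal form, and the
logarithm of elements of the stabiliser of a space of bilinear forms.
-/

set_option linter.all false

open Filter Topology Set Metric

namespace Vale.Agent.P207.H61

section Punct
variable {E E' : Type*} [NormedAddCommGroup E] [NormedSpace ℝ E] [FiniteDimensional ℝ E]
  [NormedAddCommGroup E'] [NormedSpace ℝ E'] [FiniteDimensional ℝ E']

/-- **PUNCT** -/
theorem punct {h : E → E'} {D : E → E →L[ℝ] E'} {p' : E} {p : E'} {F : Submodule ℝ E}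
    {F' : Submodule ℝ E'} (hF : F ≠ ⊤) (hF' : F' ≠ ⊥) (hd : ∀ x ≠ p', HasFDerivAt h (D x) x)
    (hc : ContinuousOn D {p'}ᶜ) (hD : ∀ x ≠ p', F.map (D x : E →ₗ[ℝ] E') = F')
    (hp : ∀ x ≠ p', h x ≠ p) (hinf : Tendsto h (cocompact E) (𝓝 p)) : False := by
  obtain ⟨w, hw⟩ : ∃ w, w ∉ F := by
    by_contra hn
    push Not at hn
    exact hF (Submodule.eq_top_iff'.2 hn)
  set a := p' + w with ha
  have hne : ∀ u : F, a + u ≠ p' := fun u hu => hw (by
    have h1 : w = -(u : E) := by
      have h2 : p' + (w + u) = p' + 0 := by rw [← add_assoc, ← ha, hu, add_zero]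
      exact eq_neg_of_add_eq_zero_left (add_left_cancel h2)
    rw [h1]
    exact F.neg_mem u.2)
  obtain ⟨π, hπ⟩ : F'.ClosedComplemented := Submodule.ClosedComplemented.of_finiteDimensional F'
  set f : F → E' := fun u => h (a + u) with hf
  have hDF : ∀ u v : F, D (a + u) v ∈ F' := fun u v => by
    rw [← hD _ (hne u)]
    exact Submodule.mem_map_of_mem v.2
  have hsf : ∀ u : F, HasStrictFDerivAt f ((D (a + u)).comp F.subtypeL) u := by
    intro u
    have h1 : HasStrictFDerivAt h (D (a + u)) (a + u) := by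
      refine hasStrictFDerivAt_of_hasFDerivAt_of_continuousAt ?_ ?_
      · filter_upwards [isOpen_compl_singleton.mem_nhds (hne u)] with y hy using hd y hy
      · exact hc.continuousAt (isOpen_compl_singleton.mem_nhds (hne u))
    have h2 : HasStrictFDerivAt (fun u : F => a + (u : E)) F.subtypeL u :=
      F.subtypeL.hasStrictFDerivAt.const_add a
    exact h1.comp u h2
  have hfc : Continuous f := continuous_iff_continuousAt.2 fun u => (hsf u).continuousAt
  -- differences lie in `F'`
  have hdiff : ∀ u : F, f u - f 0 = π (f u - f 0) := by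
    set r : F → E' := fun u => (f u - f 0) - (F'.subtypeL.comp π) (f u - f 0) with hr
    have hr' : ∀ u : F, HasFDerivAt r (0 : F →L[ℝ] E') u := by
      intro u
      have h1 := ((hsf u).hasFDerivAt.sub_const (f 0))
      have h2 := h1.sub ((F'.subtypeL.comp π).hasFDerivAt.comp u h1)
      refine h2.congr_fderiv ?_
      ext v
      have := hπ ⟨_, hDF u v⟩
      simp only [ContinuousLinearMap.coe_sub', Pi.sub_apply, ContinuousLinearMap.coe_comp',
        Function.comp_apply, Submodule.subtypeL_apply, ContinuousLinearMap.zero_apply]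
      rw [this]
      simp
    have h3 := is_const_of_fderiv_eq_zero (𝕜 := ℝ) (f := r)
      (fun u => (hr' u).differentiableAt) (fun u => (hr' u).fderiv)
    intro u
    have h4 : r u = r 0 := h3 u 0
    have h5 : r 0 = 0 := by simp [hr]
    rw [h5] at h4
    exact sub_eq_zero.1 h4
  set g : F → F' := fun u => π (f u - f 0) with hg
  have hgo : IsOpenMap g := by
    refine isOpenMap_iff_nhds_le.2 fun u => ?_
    have h1 : HasStrictFDerivAt g (π.comp ((D (a + u)).comp F.subtypeL)) u :=
      π.hasStrictFDerivAt.comp u ((hsf u).sub_const (f 0))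
    have h2 : LinearMap.range (π.comp ((D (a + u)).comp F.subtypeL)).toLinearMap = ⊤ := by
      refine LinearMap.range_eq_top.2 fun y => ?_
      obtain ⟨v, hv, hvy⟩ : (y : E') ∈ F.map (D (a + u) : E →ₗ[ℝ] E') := by
        rw [hD _ (hne u)]; exact y.2
      refine ⟨⟨v, hv⟩, ?_⟩
      have h3 : D (a + u) v = y := hvy
      simp [h3, hπ y]
    exact (h1.map_nhds_eq_of_surj h2).ge
  -- compactness
  have hft : Tendsto f (cocompact F) (𝓝 p) := by
    have h1 : IsClosedEmbedding (fun u : F => a + (u : E)) :=
      (Homeomorph.addLeft a).isClosedEmbedding.comp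
        (Submodule.closed_of_finiteDimensional F).isClosedEmbedding_subtypeVal
    exact hinf.comp h1.tendsto_cocompact
  have hK : IsCompact (insert p (range f)) := hft.isCompact_insert_range_of_cocompact hfc
  -- direction
  have hf0 : f 0 ≠ p := hp _ (hne 0)
  obtain ⟨e, he0, he⟩ : ∃ e : F', e ≠ 0 ∧ ∀ t : ℝ, 0 ≤ t → f 0 + t • (e : E') ≠ p := by
    obtain ⟨e0, h1, h2⟩ := Submodule.exists_mem_ne_zero_of_ne_bot hF'
    by_cases h3 : ∃ t : ℝ, 0 ≤ t ∧ f 0 + t • e0 = p
    · obtain ⟨t, ht0, ht⟩ := h3
      refine ⟨-⟨e0, h1⟩, by simpa using h2, fun s hs hs' => ?_⟩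
      have h4 : (t + s) • e0 = 0 := by
        have h5 : f 0 + t • e0 = f 0 + s • (-e0) := by
          rw [ht]; simpa using hs'.symm
        have h6 := add_left_cancel h5
        rw [add_smul, h6]; simp
      rcases smul_eq_zero.1 h4 with h7 | h7
      · have : t = 0 := by linarith
        rw [this, zero_smul, add_zero] at ht
        exact hf0 ht
      · exact h2 h7
    · push Not at h3
      exact ⟨⟨e0, h1⟩, by simpa using h2, fun t ht => h3 t ht⟩
  set u : Set ℝ := {t | t • e ∈ range g} with hu
  set v : Set ℝ := {t | f 0 + t • (e : E') ∉ insert p (range f)} with hv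
  have huo : IsOpen u := hgo.isOpen_range.preimage (by fun_prop)
  have hvo : IsOpen v := by
    have : IsClosed {t : ℝ | f 0 + t • (e : E') ∈ insert p (range f)} :=
      hK.isClosed.preimage (by fun_prop)
    exact this.isOpen_compl
  have key : ∀ t : ℝ, t • e ∈ range g ↔ f 0 + t • (e : E') ∈ range f := by
    intro t
    constructor
    · rintro ⟨x, hx⟩
      refine ⟨x, ?_⟩
      have h1 := hdiff x
      have h2 : (g x : E') = t • (e : E') := by rw [hx]; simp
      rw [← h2, ← h1]; abel
    · rintro ⟨x, hx⟩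
      refine ⟨x, ?_⟩
      have h1 := hdiff x
      rw [hx, add_sub_cancel_left] at h1
      apply Subtype.ext
      change ((π (f x - f 0) : F') : E') = _
      rw [hx, add_sub_cancel_left, ← h1]; simp
  have hpre := isPreconnected_iff_subset_of_disjoint.1 (isPreconnected_Ici (a := (0 : ℝ))) u v huo hvo
    (fun t ht => by
      by_cases h1 : t • e ∈ range g
      · exact Or.inl h1
      · refine Or.inr fun h2 => ?_
        rcases h2 with h2 | h2
        · exact he t ht h2
        · exact h1 ((key t).2 h2))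
    (by
      ext t
      simp only [mem_inter_iff, mem_empty_iff_false, iff_false]
      rintro ⟨_, h1, h2⟩
      exact h2 (Or.inr ((key t).1 h1)))
  rcases hpre with h1 | h1
  · obtain ⟨M, hM⟩ := hK.isBounded.exists_norm_le
    have hpos : 0 < ‖(e : E')‖ := by
      rw [norm_pos_iff]; simpa using he0
    set t : ℝ := (|M| + ‖f 0‖ + 1) / ‖(e : E')‖ with ht
    have ht0 : 0 ≤ t := by positivity
    have h2 := hM _ (Or.inr ((key t).1 (h1 ht0)))
    have h3 : ‖t • (e : E')‖ = |M| + ‖f 0‖ + 1 := by
      rw [norm_smul, Real.norm_of_nonneg ht0, ht, div_mul_cancel₀ _ hpos.ne']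
    have h4 : ‖t • (e : E')‖ ≤ ‖f 0 + t • (e : E')‖ + ‖f 0‖ := by
      have := norm_sub_le (f 0 + t • (e : E')) (f 0)
      rwa [add_sub_cancel_left] at this
    have := le_abs_self M
    linarith
  · exact h1 (le_refl (0 : ℝ)) (Or.inr ⟨0, by simp⟩)

end Punct
end Vale.Agent.P207.H61
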